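import Vale.Agent.Lib.P154Anti.Cert.D4.Table4
import Vale.Agent.Lib.P154Anti.Cert.D4.Masses

namespace Vale.Agent.Lib.P154Anti.Cert.D4

open Vale.Agent.Lib.P154Anti

theorem L110 : lvlOK3 cfg par tblI4 tblE4 vE vc Q110 17591577693629 Q111 = true := by decide +kernel

theorem L111 : lvlOK3 cfg par tblI4 tblE4 vE vc Q111 17591566174679 Q112 = true := by decide +kernel

theorem L112 : lvlOK3 cfg par tblI4 tblE4 vE vc Q112 17591606824687 Q113 = true := by decide +kernel

theorem L113 : lvlOK3 cfg par tblI4 tblE4 vE vc Q113 17591660300768 Q114 = true := by decide +kernel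

theorem L114 : lvlOK3 cfg par tblI4 tblE4 vE vc Q114 17591662782470 Q115 = true := by decide +kernel

theorem L115 : lvlOK3 cfg par tblI4 tblE4 vE vc Q115 17591703599309 Q116 = true := by decide +kernel

theorem L116 : lvlOK3 cfg par tblI4 tblE4 vE vc Q116 17591715067987 Q117 = true := by decide +kernel

theorem L117 : lvlOK3 cfg par tblI4 tblE4 vE vc Q117 17591737563145 Q118 = true := by decide +kernel

theorem L118 : lvlOK3 cfg par tblI4 tblE4 vE vc Q118 17591745456155 Q119 = true := by decide +kernel

theorem L119 : lvlOK3 cfg par tblI4 tblE4 vE vc Q119 17591770709097 Q120 = true := by decide +kernel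

end Vale.Agent.Lib.P154Anti.Cert.D4
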