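import Vale.Agent.Lib.P154Anti.Cert.D4.Table4
import Vale.Agent.Lib.P154Anti.Cert.D4.Masses

namespace Vale.Agent.Lib.P154Anti.Cert.D4

open Vale.Agent.Lib.P154Anti

theorem L120 : lvlOK3 cfg par tblI4 tblE4 vE vc Q120 17591767898474 Q121 = true := by decide +kernel

theorem L121 : lvlOK3 cfg par tblI4 tblE4 vE vc Q121 17591756392460 Q122 = true := by decide +kernel

theorem L122 : lvlOK3 cfg par tblI4 tblE4 vE vc Q122 17591799343517 Q123 = true := by decide +kernel

theorem L123 : lvlOK3 cfg par tblI4 tblE4 vE vc Q123 17591805217714 Q124 = true := by decide +kernel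

theorem L124 : lvlOK3 cfg par tblI4 tblE4 vE vc Q124 17591838339558 Q125 = true := by decide +kernel

theorem L125 : lvlOK3 cfg par tblI4 tblE4 vE vc Q125 17591824636241 Q126 = true := by decide +kernel

theorem L126 : lvlOK3 cfg par tblI4 tblE4 vE vc Q126 17591818800078 Q127 = true := by decide +kernel

theorem L127 : lvlOK3 cfg par tblI4 tblE4 vE vc Q127 17591825528347 Q128 = true := by decide +kernel

theorem L128 : lvlOK3 cfg par tblI4 tblE4 vE vc Q128 17591812755423 Q129 = true := by decide +kernel

theorem L129 : lvlOK3 cfg par tblI4 tblE4 vE vc Q129 17591764592072 Q130 = true := by decide +kernel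

end Vale.Agent.Lib.P154Anti.Cert.D4
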