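import Vale.Agent.Lib.P154Anti.Cert.D4.Table4
import Vale.Agent.Lib.P154Anti.Cert.D4.Masses

namespace Vale.Agent.Lib.P154Anti.Cert.D4

open Vale.Agent.Lib.P154Anti

theorem L130 : lvlOK3 cfg par tblI4 tblE4 vE vc Q130 17591811208909 Q131 = true := by decide +kernel

theorem L131 : lvlOK3 cfg par tblI4 tblE4 vE vc Q131 17591828814152 Q132 = true := by decide +kernel

theorem L132 : lvlOK3 cfg par tblI4 tblE4 vE vc Q132 17591838776119 Q133 = true := by decide +kernel

theorem L133 : lvlOK3 cfg par tblI4 tblE4 vE vc Q133 17591820107776 Q134 = true := by decide +kernel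

theorem L134 : lvlOK3 cfg par tblI4 tblE4 vE vc Q134 17591850911697 Q135 = true := by decide +kernel

theorem L135 : lvlOK3 cfg par tblI4 tblE4 vE vc Q135 17591812169654 Q136 = true := by decide +kernel

theorem L136 : lvlOK3 cfg par tblI4 tblE4 vE vc Q136 17591838194664 Q137 = true := by decide +kernel

theorem L137 : lvlOK3 cfg par tblI4 tblE4 vE vc Q137 17591848895141 Q138 = true := by decide +kernel

theorem L138 : lvlOK3 cfg par tblI4 tblE4 vE vc Q138 17591865356391 Q139 = true := by decide +kernel

theorem L139 : lvlOK3 cfg par tblI4 tblE4 vE vc Q139 17591844061140 Q140 = true := by decide +kernel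

end Vale.Agent.Lib.P154Anti.Cert.D4
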