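import Vale.Agent.Lib.P154Anti.Cert.D4.Table5
import Vale.Agent.Lib.P154Anti.Cert.D4.Masses

namespace Vale.Agent.Lib.P154Anti.Cert.D4

open Vale.Agent.Lib.P154Anti

theorem L140 : lvlOK3 cfg par tblI5 tblE5 vE vc Q140 17591712166504 Q141 = true := by decide +kernel

theorem L141 : lvlOK3 cfg par tblI5 tblE5 vE vc Q141 17591673320104 Q142 = true := by decide +kernel

theorem L142 : lvlOK3 cfg par tblI5 tblE5 vE vc Q142 17591688131015 Q143 = true := by decide +kernel

theorem L143 : lvlOK3 cfg par tblI5 tblE5 vE vc Q143 17591738614218 Q144 = true := by decide +kernel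

theorem L144 : lvlOK3 cfg par tblI5 tblE5 vE vc Q144 17591734500835 Q145 = true := by decide +kernel

theorem L145 : lvlOK3 cfg par tblI5 tblE5 vE vc Q145 17591745555028 Q146 = true := by decide +kernel

theorem L146 : lvlOK3 cfg par tblI5 tblE5 vE vc Q146 17591717247266 Q147 = true := by decide +kernel

theorem L147 : lvlOK3 cfg par tblI5 tblE5 vE vc Q147 17591730803047 Q148 = true := by decide +kernel

theorem L148 : lvlOK3 cfg par tblI5 tblE5 vE vc Q148 17591758032679 Q149 = true := by decide +kernel

theorem L149 : lvlOK3 cfg par tblI5 tblE5 vE vc Q149 17591784731766 Q150 = true := by decide +kernel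

end Vale.Agent.Lib.P154Anti.Cert.D4
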