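import Vale.Agent.Lib.P154Anti.Cert.D4.Table5
import Vale.Agent.Lib.P154Anti.Cert.D4.Masses

namespace Vale.Agent.Lib.P154Anti.Cert.D4

open Vale.Agent.Lib.P154Anti

theorem L150 : lvlOK3 cfg par tblI5 tblE5 vE vc Q150 17591771666589 Q151 = true := by decide +kernel

theorem L151 : lvlOK3 cfg par tblI5 tblE5 vE vc Q151 17591785666225 Q152 = true := by decide +kernel

theorem L152 : lvlOK3 cfg par tblI5 tblE5 vE vc Q152 17591764795759 Q153 = true := by decide +kernel

theorem L153 : lvlOK3 cfg par tblI5 tblE5 vE vc Q153 17591790509090 Q154 = true := by decide +kernel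

theorem L154 : lvlOK3 cfg par tblI5 tblE5 vE vc Q154 17591811722553 Q155 = true := by decide +kernel

theorem L155 : lvlOK3 cfg par tblI5 tblE5 vE vc Q155 17591776329241 Q156 = true := by decide +kernel

theorem L156 : lvlOK3 cfg par tblI5 tblE5 vE vc Q156 17591798752936 Q157 = true := by decide +kernel

theorem L157 : lvlOK3 cfg par tblI5 tblE5 vE vc Q157 17591803458716 Q158 = true := by decide +kernel

theorem L158 : lvlOK3 cfg par tblI5 tblE5 vE vc Q158 17591809331900 Q159 = true := by decide +kernel

theorem L159 : lvlOK3 cfg par tblI5 tblE5 vE vc Q159 17591781909399 Q160 = true := by decide +kernel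

end Vale.Agent.Lib.P154Anti.Cert.D4
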