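import Vale.Agent.Lib.P154Anti.Cert.D4.Table5
import Vale.Agent.Lib.P154Anti.Cert.D4.Masses

namespace Vale.Agent.Lib.P154Anti.Cert.D4

open Vale.Agent.Lib.P154Anti

theorem L160 : lvlOK3 cfg par tblI5 tblE5 vE vc Q160 17591837725503 Q161 = true := by decide +kernel

theorem L161 : lvlOK3 cfg par tblI5 tblE5 vE vc Q161 17591822665379 Q162 = true := by decide +kernel

theorem L162 : lvlOK3 cfg par tblI5 tblE5 vE vc Q162 17591830093627 Q163 = true := by decide +kernel

theorem L163 : lvlOK3 cfg par tblI5 tblE5 vE vc Q163 17591831843070 Q164 = true := by decide +kernel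

theorem L164 : lvlOK3 cfg par tblI5 tblE5 vE vc Q164 17591856764840 Q165 = true := by decide +kernel

theorem L165 : lvlOK3 cfg par tblI5 tblE5 vE vc Q165 17591841936267 Q166 = true := by decide +kernel

theorem L166 : lvlOK3 cfg par tblI5 tblE5 vE vc Q166 17591810241508 Q167 = true := by decide +kernel

theorem L167 : lvlOK3 cfg par tblI5 tblE5 vE vc Q167 17591839361985 Q168 = true := by decide +kernel

theorem L168 : lvlOK3 cfg par tblI5 tblE5 vE vc Q168 17591840680578 Q169 = true := by decide +kernel

theorem L169 : lvlOK3 cfg par tblI5 tblE5 vE vc Q169 17591818224100 Q170 = true := by decide +kernel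

end Vale.Agent.Lib.P154Anti.Cert.D4
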