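import Vale.Agent.Lib.P154Anti.Cert.D4.Table5
import Vale.Agent.Lib.P154Anti.Cert.D4.Masses

namespace Vale.Agent.Lib.P154Anti.Cert.D4

open Vale.Agent.Lib.P154Anti

theorem L170 : lvlOK3 cfg par tblI5 tblE5 vE vc Q170 17591821224058 Q171 = true := by decide +kernel

theorem L171 : lvlOK3 cfg par tblI5 tblE5 vE vc Q171 17591864000274 Q172 = true := by decide +kernel

theorem L172 : lvlOK3 cfg par tblI5 tblE5 vE vc Q172 17591860732493 Q173 = true := by decide +kernel

theorem L173 : lvlOK3 cfg par tblI5 tblE5 vE vc Q173 17591859542956 Q174 = true := by decide +kernel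

theorem L174 : lvlOK3 cfg par tblI5 tblE5 vE vc Q174 17591861653548 Q175 = true := by decide +kernel

theorem L175 : lvlOK3 cfg par tblI5 tblE5 vE vc Q175 17591864041752 Q176 = true := by decide +kernel

theorem L176 : lvlOK3 cfg par tblI5 tblE5 vE vc Q176 17591815764063 Q177 = true := by decide +kernel

end Vale.Agent.Lib.P154Anti.Cert.D4
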