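import Vale.Agent.Lib.P154Anti.Cert.D4.Table1
import Vale.Agent.Lib.P154Anti.Cert.D4.Masses

namespace Vale.Agent.Lib.P154Anti.Cert.D4

open Vale.Agent.Lib.P154Anti

theorem L50 : lvlOK3 cfg par tblI1 tblE1 vE vc Q50 16287804954988 Q51 = true := by decide +kernel

theorem L51 : lvlOK3 cfg par tblI1 tblE1 vE vc Q51 16412442881717 Q52 = true := by decide +kernel

theorem L52 : lvlOK3 cfg par tblI1 tblE1 vE vc Q52 16533574119517 Q53 = true := by decide +kernel

theorem L53 : lvlOK3 cfg par tblI1 tblE1 vE vc Q53 16650548388444 Q54 = true := by decide +kernel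

theorem L54 : lvlOK3 cfg par tblI1 tblE1 vE vc Q54 16762535477553 Q55 = true := by decide +kernel

theorem L55 : lvlOK3 cfg par tblI1 tblE1 vE vc Q55 16868885155701 Q56 = true := by decide +kernel

theorem L56 : lvlOK3 cfg par tblI1 tblE1 vE vc Q56 16968893652564 Q57 = true := by decide +kernel

theorem L57 : lvlOK3 cfg par tblI1 tblE1 vE vc Q57 17061935911833 Q58 = true := by decide +kernel

theorem L58 : lvlOK3 cfg par tblI1 tblE1 vE vc Q58 17147348097050 Q59 = true := by decide +kernel

theorem L59 : lvlOK3 cfg par tblI1 tblE1 vE vc Q59 17224656707723 Q60 = true := by decide +kernel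

end Vale.Agent.Lib.P154Anti.Cert.D4
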