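import Vale.Agent.Lib.P154Anti.Cert.D4.Table1
import Vale.Agent.Lib.P154Anti.Cert.D4.Masses

namespace Vale.Agent.Lib.P154Anti.Cert.D4

open Vale.Agent.Lib.P154Anti

theorem L60 : lvlOK3 cfg par tblI1 tblE1 vE vc Q60 17293670738336 Q61 = true := by decide +kernel

theorem L61 : lvlOK3 cfg par tblI1 tblE1 vE vc Q61 17353960703500 Q62 = true := by decide +kernel

theorem L62 : lvlOK3 cfg par tblI1 tblE1 vE vc Q62 17405815534038 Q63 = true := by decide +kernel

theorem L63 : lvlOK3 cfg par tblI1 tblE1 vE vc Q63 17449392168472 Q64 = true := by decide +kernel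

theorem L64 : lvlOK3 cfg par tblI1 tblE1 vE vc Q64 17485223602884 Q65 = true := by decide +kernel

theorem L65 : lvlOK3 cfg par tblI1 tblE1 vE vc Q65 17514085342831 Q66 = true := by decide +kernel

theorem L66 : lvlOK3 cfg par tblI1 tblE1 vE vc Q66 17536498085428 Q67 = true := by decide +kernel

theorem L67 : lvlOK3 cfg par tblI1 tblE1 vE vc Q67 17553500004642 Q68 = true := by decide +kernel

theorem L68 : lvlOK3 cfg par tblI1 tblE1 vE vc Q68 17566078160565 Q69 = true := by decide +kernel

theorem L69 : lvlOK3 cfg par tblI1 tblE1 vE vc Q69 17574946778842 Q70 = true := by decide +kernel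

end Vale.Agent.Lib.P154Anti.Cert.D4
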