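import Vale.Agent.Lib.P154Anti.Cert.D4.Table2
import Vale.Agent.Lib.P154Anti.Cert.D4.Masses

namespace Vale.Agent.Lib.P154Anti.Cert.D4

open Vale.Agent.Lib.P154Anti

theorem L70 : lvlOK3 cfg par tblI2 tblE2 vE vc Q70 17580207433537 Q71 = true := by decide +kernel

theorem L71 : lvlOK3 cfg par tblI2 tblE2 vE vc Q71 17584631309259 Q72 = true := by decide +kernel

theorem L72 : lvlOK3 cfg par tblI2 tblE2 vE vc Q72 17587505189845 Q73 = true := by decide +kernel

theorem L73 : lvlOK3 cfg par tblI2 tblE2 vE vc Q73 17589346065646 Q74 = true := by decide +kernel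

theorem L74 : lvlOK3 cfg par tblI2 tblE2 vE vc Q74 17590367684691 Q75 = true := by decide +kernel

theorem L75 : lvlOK3 cfg par tblI2 tblE2 vE vc Q75 17590835746789 Q76 = true := by decide +kernel

theorem L76 : lvlOK3 cfg par tblI2 tblE2 vE vc Q76 17591268130958 Q77 = true := by decide +kernel

theorem L77 : lvlOK3 cfg par tblI2 tblE2 vE vc Q77 17591390033541 Q78 = true := by decide +kernel

theorem L78 : lvlOK3 cfg par tblI2 tblE2 vE vc Q78 17591493295831 Q79 = true := by decide +kernel

theorem L79 : lvlOK3 cfg par tblI2 tblE2 vE vc Q79 17591534321440 Q80 = true := by decide +kernel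

end Vale.Agent.Lib.P154Anti.Cert.D4
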