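import Vale.Agent.Lib.P154Anti.Cert.D4.Table2
import Vale.Agent.Lib.P154Anti.Cert.D4.Masses

namespace Vale.Agent.Lib.P154Anti.Cert.D4

open Vale.Agent.Lib.P154Anti

theorem L80 : lvlOK3 cfg par tblI2 tblE2 vE vc Q80 17591542230647 Q81 = true := by decide +kernel

theorem L81 : lvlOK3 cfg par tblI2 tblE2 vE vc Q81 17591542779575 Q82 = true := by decide +kernel

theorem L82 : lvlOK3 cfg par tblI2 tblE2 vE vc Q82 17591602701675 Q83 = true := by decide +kernel

theorem L83 : lvlOK3 cfg par tblI2 tblE2 vE vc Q83 17591613764521 Q84 = true := by decide +kernel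

theorem L84 : lvlOK3 cfg par tblI2 tblE2 vE vc Q84 17591569406056 Q85 = true := by decide +kernel

theorem L85 : lvlOK3 cfg par tblI2 tblE2 vE vc Q85 17591579872382 Q86 = true := by decide +kernel

theorem L86 : lvlOK3 cfg par tblI2 tblE2 vE vc Q86 17591579191714 Q87 = true := by decide +kernel

theorem L87 : lvlOK3 cfg par tblI2 tblE2 vE vc Q87 17591614422047 Q88 = true := by decide +kernel

theorem L88 : lvlOK3 cfg par tblI2 tblE2 vE vc Q88 17591601919118 Q89 = true := by decide +kernel

theorem L89 : lvlOK3 cfg par tblI2 tblE2 vE vc Q89 17591672139846 Q90 = true := by decide +kernel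

end Vale.Agent.Lib.P154Anti.Cert.D4
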