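import Vale.Agent.Lib.P154Anti.Cert.D4.Table3
import Vale.Agent.Lib.P154Anti.Cert.D4.Masses

namespace Vale.Agent.Lib.P154Anti.Cert.D4

open Vale.Agent.Lib.P154Anti

theorem L90 : lvlOK3 cfg par tblI3 tblE3 vE vc Q90 17591268457561 Q91 = true := by decide +kernel

theorem L91 : lvlOK3 cfg par tblI3 tblE3 vE vc Q91 17591292030540 Q92 = true := by decide +kernel

theorem L92 : lvlOK3 cfg par tblI3 tblE3 vE vc Q92 17591348485212 Q93 = true := by decide +kernel

theorem L93 : lvlOK3 cfg par tblI3 tblE3 vE vc Q93 17591444530088 Q94 = true := by decide +kernel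

theorem L94 : lvlOK3 cfg par tblI3 tblE3 vE vc Q94 17591565860909 Q95 = true := by decide +kernel

theorem L95 : lvlOK3 cfg par tblI3 tblE3 vE vc Q95 17591547462580 Q96 = true := by decide +kernel

theorem L96 : lvlOK3 cfg par tblI3 tblE3 vE vc Q96 17591616637821 Q97 = true := by decide +kernel

theorem L97 : lvlOK3 cfg par tblI3 tblE3 vE vc Q97 17591687663400 Q98 = true := by decide +kernel

theorem L98 : lvlOK3 cfg par tblI3 tblE3 vE vc Q98 17591654227700 Q99 = true := by decide +kernel

theorem L99 : lvlOK3 cfg par tblI3 tblE3 vE vc Q99 17591678187680 Q100 = true := by decide +kernel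

end Vale.Agent.Lib.P154Anti.Cert.D4
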