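import Vale.Agent.Lib.P154Anti.LatStep3
import Vale.Agent.Lib.P154Anti.Cert.D4.Levels0
import Vale.Agent.Lib.P154Anti.Cert.D4.Levels1
import Vale.Agent.Lib.P154Anti.Cert.D4.Levels2
import Vale.Agent.Lib.P154Anti.Cert.D4.Levels3
import Vale.Agent.Lib.P154Anti.Cert.D4.Levels4
import Vale.Agent.Lib.P154Anti.Cert.D4.Levels5
import Vale.Agent.Lib.P154Anti.Cert.D4.Levels6
import Vale.Agent.Lib.P154Anti.Cert.D4.Levels7
import Vale.Agent.Lib.P154Anti.Cert.D4.Levels8
import Vale.Agent.Lib.P154Anti.Cert.D4.Levels9
import Vale.Agent.Lib.P154Anti.Cert.D4.Levels10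
import Vale.Agent.Lib.P154Anti.Cert.D4.Levels11
import Vale.Agent.Lib.P154Anti.Cert.D4.Levels12
import Vale.Agent.Lib.P154Anti.Cert.D4.Levels13
import Vale.Agent.Lib.P154Anti.Cert.D4.Levels14
import Vale.Agent.Lib.P154Anti.Cert.D4.Levels15
import Vale.Agent.Lib.P154Anti.Cert.D4.Levels16
import Vale.Agent.Lib.P154Anti.Cert.D4.Levels17

namespace Vale.Agent.Lib.P154Anti.Cert.D4

open Vale.Agent.Lib.P154Anti Vale.Agent.Lib.P154

theorem fin_ok : finalOK3 cfg par tblI5 tblE5 Q176 40 51070973192 4091796780 = true := by decide +kernel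

theorem inv_all (m : ℕ) : InvE cfg 2 (m + 176) Q176 := by
  have G0 := good3 cfg_ok par_ok tbl_ok0
  have G1 := good3 cfg_ok par_ok tbl_ok1
  have G2 := good3 cfg_ok par_ok tbl_ok2
  have G3 := good3 cfg_ok par_ok tbl_ok3
  have G4 := good3 cfg_ok par_ok tbl_ok4
  have G5 := good3 cfg_ok par_ok tbl_ok5
  have hd : cfg.d = 2 + 2 := rfl
  have h0 : InvE cfg 2 m Q0 := invE_zero G0.dst G0.cfg 2 m
  have h1 := invE_step3 hd G0 L0 h0
  have h2 := invE_step3 hd G0 L1 h1
  have h3 := invE_step3 hd G0 L2 h2
  have h4 := invE_step3 hd G0 L3 h3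
  have h5 := invE_step3 hd G0 L4 h4
  have h6 := invE_step3 hd G0 L5 h5
  have h7 := invE_step3 hd G0 L6 h6
  have h8 := invE_step3 hd G0 L7 h7
  have h9 := invE_step3 hd G0 L8 h8
  have h10 := invE_step3 hd G0 L9 h9
  have h11 := invE_step3 hd G0 L10 h10
  have h12 := invE_step3 hd G0 L11 h11
  have h13 := invE_step3 hd G0 L12 h12
  have h14 := invE_step3 hd G0 L13 h13
  have h15 := invE_step3 hd G0 L14 h14
  have h16 := invE_step3 hd G0 L15 h15
  have h17 := invE_step3 hd G0 L16 h16
  have h18 := invE_step3 hd G0 L17 h17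
  have h19 := invE_step3 hd G0 L18 h18
  have h20 := invE_step3 hd G0 L19 h19
  have h21 := invE_step3 hd G0 L20 h20
  have h22 := invE_step3 hd G0 L21 h21
  have h23 := invE_step3 hd G0 L22 h22
  have h24 := invE_step3 hd G0 L23 h23
  have h25 := invE_step3 hd G0 L24 h24
  have h26 := invE_step3 hd G0 L25 h25
  have h27 := invE_step3 hd G0 L26 h26
  have h28 := invE_step3 hd G0 L27 h27
  have h29 := invE_step3 hd G0 L28 h28
  have h30 := invE_step3 hd G0 L29 h29
  have h31 := invE_step3 hd G0 L30 h30
  have h32 := invE_step3 hd G0 L31 h31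
  have h33 := invE_step3 hd G0 L32 h32
  have h34 := invE_step3 hd G0 L33 h33
  have h35 := invE_step3 hd G0 L34 h34
  have h36 := invE_step3 hd G0 L35 h35
  have h37 := invE_step3 hd G0 L36 h36
  have h38 := invE_step3 hd G0 L37 h37
  have h39 := invE_step3 hd G0 L38 h38
  have h40 := invE_step3 hd G0 L39 h39
  have h41 := invE_step3 hd G0 L40 h40
  have h42 := invE_step3 hd G0 L41 h41
  have h43 := invE_step3 hd G0 L42 h42
  have h44 := invE_step3 hd G0 L43 h43
  have h45 := invE_step3 hd G0 L44 h44
  have h46 := invE_step3 hd G0 L45 h45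
  have h47 := invE_step3 hd G0 L46 h46
  have h48 := invE_step3 hd G0 L47 h47
  have h49 := invE_step3 hd G0 L48 h48
  have h50 := invE_step3 hd G0 L49 h49
  have h51 := invE_step3 hd G1 L50 h50
  have h52 := invE_step3 hd G1 L51 h51
  have h53 := invE_step3 hd G1 L52 h52
  have h54 := invE_step3 hd G1 L53 h53
  have h55 := invE_step3 hd G1 L54 h54
  have h56 := invE_step3 hd G1 L55 h55
  have h57 := invE_step3 hd G1 L56 h56
  have h58 := invE_step3 hd G1 L57 h57
  have h59 := invE_step3 hd G1 L58 h58
  have h60 := invE_step3 hd G1 L59 h59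
  have h61 := invE_step3 hd G1 L60 h60
  have h62 := invE_step3 hd G1 L61 h61
  have h63 := invE_step3 hd G1 L62 h62
  have h64 := invE_step3 hd G1 L63 h63
  have h65 := invE_step3 hd G1 L64 h64
  have h66 := invE_step3 hd G1 L65 h65
  have h67 := invE_step3 hd G1 L66 h66
  have h68 := invE_step3 hd G1 L67 h67
  have h69 := invE_step3 hd G1 L68 h68
  have h70 := invE_step3 hd G1 L69 h69
  have h71 := invE_step3 hd G2 L70 h70
  have h72 := invE_step3 hd G2 L71 h71
  have h73 := invE_step3 hd G2 L72 h72
  have h74 := invE_step3 hd G2 L73 h73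
  have h75 := invE_step3 hd G2 L74 h74
  have h76 := invE_step3 hd G2 L75 h75
  have h77 := invE_step3 hd G2 L76 h76
  have h78 := invE_step3 hd G2 L77 h77
  have h79 := invE_step3 hd G2 L78 h78
  have h80 := invE_step3 hd G2 L79 h79
  have h81 := invE_step3 hd G2 L80 h80
  have h82 := invE_step3 hd G2 L81 h81
  have h83 := invE_step3 hd G2 L82 h82
  have h84 := invE_step3 hd G2 L83 h83
  have h85 := invE_step3 hd G2 L84 h84
  have h86 := invE_step3 hd G2 L85 h85
  have h87 := invE_step3 hd G2 L86 h86
  have h88 := invE_step3 hd G2 L87 h87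
  have h89 := invE_step3 hd G2 L88 h88
  have h90 := invE_step3 hd G2 L89 h89
  have h91 := invE_step3 hd G3 L90 h90
  have h92 := invE_step3 hd G3 L91 h91
  have h93 := invE_step3 hd G3 L92 h92
  have h94 := invE_step3 hd G3 L93 h93
  have h95 := invE_step3 hd G3 L94 h94
  have h96 := invE_step3 hd G3 L95 h95
  have h97 := invE_step3 hd G3 L96 h96
  have h98 := invE_step3 hd G3 L97 h97
  have h99 := invE_step3 hd G3 L98 h98
  have h100 := invE_step3 hd G3 L99 h99
  have h101 := invE_step3 hd G3 L100 h100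
  have h102 := invE_step3 hd G3 L101 h101
  have h103 := invE_step3 hd G3 L102 h102
  have h104 := invE_step3 hd G3 L103 h103
  have h105 := invE_step3 hd G3 L104 h104
  have h106 := invE_step3 hd G3 L105 h105
  have h107 := invE_step3 hd G3 L106 h106
  have h108 := invE_step3 hd G3 L107 h107
  have h109 := invE_step3 hd G3 L108 h108
  have h110 := invE_step3 hd G3 L109 h109
  have h111 := invE_step3 hd G4 L110 h110
  have h112 := invE_step3 hd G4 L111 h111
  have h113 := invE_step3 hd G4 L112 h112
  have h114 := invE_step3 hd G4 L113 h113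
  have h115 := invE_step3 hd G4 L114 h114
  have h116 := invE_step3 hd G4 L115 h115
  have h117 := invE_step3 hd G4 L116 h116
  have h118 := invE_step3 hd G4 L117 h117
  have h119 := invE_step3 hd G4 L118 h118
  have h120 := invE_step3 hd G4 L119 h119
  have h121 := invE_step3 hd G4 L120 h120
  have h122 := invE_step3 hd G4 L121 h121
  have h123 := invE_step3 hd G4 L122 h122
  have h124 := invE_step3 hd G4 L123 h123
  have h125 := invE_step3 hd G4 L124 h124
  have h126 := invE_step3 hd G4 L125 h125
  have h127 := invE_step3 hd G4 L126 h126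
  have h128 := invE_step3 hd G4 L127 h127
  have h129 := invE_step3 hd G4 L128 h128
  have h130 := invE_step3 hd G4 L129 h129
  have h131 := invE_step3 hd G4 L130 h130
  have h132 := invE_step3 hd G4 L131 h131
  have h133 := invE_step3 hd G4 L132 h132
  have h134 := invE_step3 hd G4 L133 h133
  have h135 := invE_step3 hd G4 L134 h134
  have h136 := invE_step3 hd G4 L135 h135
  have h137 := invE_step3 hd G4 L136 h136
  have h138 := invE_step3 hd G4 L137 h137
  have h139 := invE_step3 hd G4 L138 h138
  have h140 := invE_step3 hd G4 L139 h139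
  have h141 := invE_step3 hd G5 L140 h140
  have h142 := invE_step3 hd G5 L141 h141
  have h143 := invE_step3 hd G5 L142 h142
  have h144 := invE_step3 hd G5 L143 h143
  have h145 := invE_step3 hd G5 L144 h144
  have h146 := invE_step3 hd G5 L145 h145
  have h147 := invE_step3 hd G5 L146 h146
  have h148 := invE_step3 hd G5 L147 h147
  have h149 := invE_step3 hd G5 L148 h148
  have h150 := invE_step3 hd G5 L149 h149
  have h151 := invE_step3 hd G5 L150 h150
  have h152 := invE_step3 hd G5 L151 h151
  have h153 := invE_step3 hd G5 L152 h152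
  have h154 := invE_step3 hd G5 L153 h153
  have h155 := invE_step3 hd G5 L154 h154
  have h156 := invE_step3 hd G5 L155 h155
  have h157 := invE_step3 hd G5 L156 h156
  have h158 := invE_step3 hd G5 L157 h157
  have h159 := invE_step3 hd G5 L158 h158
  have h160 := invE_step3 hd G5 L159 h159
  have h161 := invE_step3 hd G5 L160 h160
  have h162 := invE_step3 hd G5 L161 h161
  have h163 := invE_step3 hd G5 L162 h162
  have h164 := invE_step3 hd G5 L163 h163
  have h165 := invE_step3 hd G5 L164 h164
  have h166 := invE_step3 hd G5 L165 h165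
  have h167 := invE_step3 hd G5 L166 h166
  have h168 := invE_step3 hd G5 L167 h167
  have h169 := invE_step3 hd G5 L168 h168
  have h170 := invE_step3 hd G5 L169 h169
  have h171 := invE_step3 hd G5 L170 h170
  have h172 := invE_step3 hd G5 L171 h171
  have h173 := invE_step3 hd G5 L172 h172
  have h174 := invE_step3 hd G5 L173 h173
  have h175 := invE_step3 hd G5 L174 h174
  have h176 := invE_step3 hd G5 L175 h175
  exact h176

/-- The depth from which the bounds hold. -/
def depth : ℕ := 177

/-- The bound of the second moment. -/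
noncomputable def y0 : ℝ := (51070973192 : ℝ) / 2 ^ 40

/-- The bound of the fourth moment. -/
noncomputable def m0 : ℝ := (4091796780 : ℝ) / 2 ^ 40

/-- The moments at all depths from `depth` on, for every `lam` between `lamOf cfg` and `0`. -/
theorem moments {lam : ℝ} (h0 : lamOf cfg ≤ lam) (h1 : lam ≤ 0) (n : ℕ) (hn : depth ≤ n) :
    PhiN 2 lam p2T n ≤ y0 ∧ PhiN 2 lam (fun c => p2T c ^ 2) n ≤ m0 := by
  obtain ⟨m, rfl⟩ : ∃ m, n = m + 176 + 1 := ⟨n - 177, by simp only [depth] at hn; omega⟩
  exact final_bound3 (k := 2) (n := m + 176) rfl cfg_ok par_ok tbl_ok5 fin_ok (inv_all m) h0 h1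

/-- The lattice lower end of the eigenvalue. -/
theorem lamOf_cfg : lamOf cfg = -(1 : ℝ) / 2 := by
  simp only [lamOf, cfg]
  norm_num

end Vale.Agent.Lib.P154Anti.Cert.D4
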