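import Vale.Agent.Lib.P154Anti.Cert.D4.Table3
import Vale.Agent.Lib.P154Anti.Cert.D4.Masses

namespace Vale.Agent.Lib.P154Anti.Cert.D4

open Vale.Agent.Lib.P154Anti

theorem L100 : lvlOK3 cfg par tblI3 tblE3 vE vc Q100 17591691152007 Q101 = true := by decide +kernel

theorem L101 : lvlOK3 cfg par tblI3 tblE3 vE vc Q101 17591724540669 Q102 = true := by decide +kernel

theorem L102 : lvlOK3 cfg par tblI3 tblE3 vE vc Q102 17591731148379 Q103 = true := by decide +kernel

theorem L103 : lvlOK3 cfg par tblI3 tblE3 vE vc Q103 17591742396876 Q104 = true := by decide +kernel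

theorem L104 : lvlOK3 cfg par tblI3 tblE3 vE vc Q104 17591752283791 Q105 = true := by decide +kernel

theorem L105 : lvlOK3 cfg par tblI3 tblE3 vE vc Q105 17591748331792 Q106 = true := by decide +kernel

theorem L106 : lvlOK3 cfg par tblI3 tblE3 vE vc Q106 17591752559124 Q107 = true := by decide +kernel

theorem L107 : lvlOK3 cfg par tblI3 tblE3 vE vc Q107 17591787332802 Q108 = true := by decide +kernel

theorem L108 : lvlOK3 cfg par tblI3 tblE3 vE vc Q108 17591805061335 Q109 = true := by decide +kernel

theorem L109 : lvlOK3 cfg par tblI3 tblE3 vE vc Q109 17591777018804 Q110 = true := by decide +kernel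

end Vale.Agent.Lib.P154Anti.Cert.D4
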